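import Vale.Agent.Helper16.KTV.Defs

/-!
Module E of the bipartite switch-chain project (problem P335):
a switch preserves the margins, and any two binary tables with the same margins are
joined by a sequence of switches (Ryser).
-/

namespace KTV

open Finset

section Tables

variable {α β : Type*} [Fintype α] [DecidableEq α] [Fintype β] [DecidableEq β]

namespace H23

theorem card_filter_comp_perm {ι : Type*} [Fintype ι] [DecidableEq ι] (u : ι → Bool)
    (π : Equiv.Perm ι) :
    (univ.filter fun s => u (π s) = true).card = (univ.filter fun s => u s = true).card := by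
  apply Finset.card_bij (fun s _ => π s)
  · intro s hs
    simpa using hs
  · intro s _ t _ h
    exact π.injective h
  · intro t ht
    exact ⟨π.symm t, by simpa using ht, by simp⟩

theorem switchAt_rowSum_eq {a b : α} {j k : β} {x y : Tab α β} (h : SwitchAt a b j k x y)
    (r : α) : rowSum y r = rowSum x r := by
  obtain ⟨hab, hjk, h1, h2, h3, h4, h5, h6, h7, h8, h9⟩ := h
  unfold rowSum
  by_cases hr : r = a ∨ r = b
  · have key : ∀ s, y r s = x r (Equiv.swap j k s) := by
      intro s
      by_cases hsj : s = j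
      · subst hsj
        rw [Equiv.swap_apply_left]
        rcases hr with rfl | rfl
        · rw [h5, h3]
        · rw [h8, h2]
      · by_cases hsk : s = k
        · subst hsk
          rw [Equiv.swap_apply_right]
          rcases hr with rfl | rfl
          · rw [h7, h1]
          · rw [h6, h4]
        · rw [Equiv.swap_apply_of_ne_of_ne hsj hsk]
          exact h9 r s (by tauto)
    simp_rw [key]
    exact card_filter_comp_perm (x r) (Equiv.swap j k)
  · have key : ∀ s, y r s = x r s := fun s => h9 r s (by tauto)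
    simp_rw [key]

theorem switchAt_colSum_eq {a b : α} {j k : β} {x y : Tab α β} (h : SwitchAt a b j k x y)
    (s : β) : colSum y s = colSum x s := by
  obtain ⟨hab, hjk, h1, h2, h3, h4, h5, h6, h7, h8, h9⟩ := h
  unfold colSum
  by_cases hs : s = j ∨ s = k
  · have key : ∀ r, y r s = x (Equiv.swap a b r) s := by
      intro r
      by_cases hra : r = a
      · subst hra
        rw [Equiv.swap_apply_left]
        rcases hs with rfl | rfl
        · rw [h5, h4]
        · rw [h7, h2]
      · by_cases hrb : r = b
        · subst hrb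
          rw [Equiv.swap_apply_right]
          rcases hs with rfl | rfl
          · rw [h8, h1]
          · rw [h6, h3]
        · rw [Equiv.swap_apply_of_ne_of_ne hra hrb]
          exact h9 r s (by tauto)
    simp_rw [key]
    exact card_filter_comp_perm (fun r => x r s) (Equiv.swap a b)
  · have key : ∀ r, y r s = x r s := fun r => h9 r s (by tauto)
    simp_rw [key]

end H23

/-- (E1) a switch preserves the margins. -/
theorem IsSwitch.mem_Omega {ρ : α → ℕ} {c : β → ℕ} {x y : Tab α β} (h : IsSwitch x y)
    (hx : x ∈ Omega ρ c) : y ∈ Omega ρ c := by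
  obtain ⟨a, b, j, k, hsw⟩ := h
  unfold Omega at hx ⊢
  rw [Finset.mem_filter] at hx ⊢
  refine ⟨Finset.mem_univ _, fun r => ?_, fun s => ?_⟩
  · rw [H23.switchAt_rowSum_eq hsw r]
    exact hx.2.1 r
  · rw [H23.switchAt_colSum_eq hsw s]
    exact hx.2.2 s

namespace H23

theorem switchAt_symm {a b : α} {j k : β} {x y : Tab α β} (h : SwitchAt a b j k x y) :
    SwitchAt a b k j y x := by
  obtain ⟨hab, hjk, h1, h2, h3, h4, h5, h6, h7, h8, h9⟩ := h
  refine ⟨hab, hjk.symm, h7, h8, h5, h6, h3, h4, h1, h2, ?_⟩
  intro r s hrs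
  exact (h9 r s (by tauto)).symm

theorem isSwitch_symm {x y : Tab α β} (h : IsSwitch x y) : IsSwitch y x := by
  obtain ⟨a, b, j, k, hsw⟩ := h
  exact ⟨a, b, k, j, switchAt_symm hsw⟩

/-- The table obtained from `x` by writing the switched pattern into rows `a, b` and
columns `j, k`. -/
def doSwitch (a b : α) (j k : β) (x : Tab α β) : Tab α β := fun r s =>
  if (r = a ∧ s = j) ∨ (r = b ∧ s = k) then false
  else if (r = a ∧ s = k) ∨ (r = b ∧ s = j) then true
  else x r s

theorem switchAt_doSwitch {a b : α} {j k : β} {x : Tab α β} (hab : a ≠ b) (hjk : j ≠ k)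
    (h1 : x a j = true) (h2 : x b k = true) (h3 : x a k = false) (h4 : x b j = false) :
    SwitchAt a b j k x (doSwitch a b j k x) := by
  have hba : b ≠ a := hab.symm
  have hkj : k ≠ j := hjk.symm
  refine ⟨hab, hjk, h1, h2, h3, h4, ?_, ?_, ?_, ?_, ?_⟩
  · simp [doSwitch]
  · simp [doSwitch]
  · simp [doSwitch, hab, hkj]
  · simp [doSwitch, hba, hjk]
  · intro r s hrs
    unfold doSwitch
    rw [if_neg (by tauto), if_neg (by tauto)]

/-- The number of cells in which two tables differ. -/
def hdist (x y : Tab α β) : ℕ := (univ.filter fun p : α × β => x p.1 p.2 ≠ y p.1 p.2).card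

theorem hdist_comm (x y : Tab α β) : hdist x y = hdist y x := by
  unfold hdist
  congr 1
  apply Finset.filter_congr
  intro p _
  exact ne_comm

theorem hdist_lt {u u' z : Tab α β} {c1 c2 c3 c4 : α × β}
    (h12 : c1 ≠ c2) (h13 : c1 ≠ c3) (h23 : c2 ≠ c3)
    (hout : ∀ p : α × β, p ≠ c1 → p ≠ c2 → p ≠ c3 → p ≠ c4 → u' p.1 p.2 = u p.1 p.2)
    (a1 : u' c1.1 c1.2 = z c1.1 c1.2) (a2 : u' c2.1 c2.2 = z c2.1 c2.2)
    (a3 : u' c3.1 c3.2 = z c3.1 c3.2)
    (d1 : u c1.1 c1.2 ≠ z c1.1 c1.2) (d2 : u c2.1 c2.2 ≠ z c2.1 c2.2)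
    (d3 : u c3.1 c3.2 ≠ z c3.1 c3.2) :
    hdist u' z < hdist u z := by
  unfold hdist
  set D := univ.filter fun p : α × β => u p.1 p.2 ≠ z p.1 p.2 with hD
  have m1 : c1 ∈ D := by
    rw [hD, Finset.mem_filter]
    exact ⟨Finset.mem_univ _, d1⟩
  have m2 : c2 ∈ D.erase c1 := by
    refine Finset.mem_erase.mpr ⟨h12.symm, ?_⟩
    rw [hD, Finset.mem_filter]
    exact ⟨Finset.mem_univ _, d2⟩
  have m3 : c3 ∈ (D.erase c1).erase c2 := by
    refine Finset.mem_erase.mpr ⟨h23.symm, Finset.mem_erase.mpr ⟨h13.symm, ?_⟩⟩
    rw [hD, Finset.mem_filter]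
    exact ⟨Finset.mem_univ _, d3⟩
  have hsub : (univ.filter fun p : α × β => u' p.1 p.2 ≠ z p.1 p.2) ⊆
      insert c4 (((D.erase c1).erase c2).erase c3) := by
    intro p hp
    rw [Finset.mem_filter] at hp
    by_cases h4 : p = c4
    · subst h4
      exact Finset.mem_insert_self _ _
    · apply Finset.mem_insert_of_mem
      have n1 : p ≠ c1 := by
        rintro rfl
        exact hp.2 a1
      have n2 : p ≠ c2 := by
        rintro rfl
        exact hp.2 a2
      have n3 : p ≠ c3 := by
        rintro rfl
        exact hp.2 a3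
      refine Finset.mem_erase.mpr ⟨n3, Finset.mem_erase.mpr ⟨n2, Finset.mem_erase.mpr ⟨n1, ?_⟩⟩⟩
      rw [hD, Finset.mem_filter]
      refine ⟨Finset.mem_univ _, ?_⟩
      rw [← hout p n1 n2 n3 h4]
      exact hp.2
  have hc := Finset.card_le_card hsub
  have e1 := Finset.card_erase_of_mem m1
  have e2 := Finset.card_erase_of_mem m2
  have e3 := Finset.card_erase_of_mem m3
  have e4 := Finset.card_insert_le c4 (((D.erase c1).erase c2).erase c3)
  have p1 : 0 < D.card := Finset.card_pos.mpr ⟨c1, m1⟩
  have p2 : 0 < (D.erase c1).card := Finset.card_pos.mpr ⟨c2, m2⟩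
  have p3 : 0 < ((D.erase c1).erase c2).card := Finset.card_pos.mpr ⟨c3, m3⟩
  omega

theorem card_tf_eq_card_ft {ι : Type*} [Fintype ι] (u v : ι → Bool)
    (h : (univ.filter fun i => u i = true).card = (univ.filter fun i => v i = true).card) :
    (univ.filter fun i => u i = true ∧ v i = false).card =
      (univ.filter fun i => u i = false ∧ v i = true).card := by
  simp only [Finset.card_filter] at h ⊢
  have key : ∀ i, (if u i = true ∧ v i = false then 1 else 0) + (if v i = true then 1 else 0) =
      (if u i = false ∧ v i = true then 1 else 0) + (if u i = true then 1 else 0) := by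
    intro i
    cases u i <;> cases v i <;> simp
  have hsum := Finset.sum_congr (rfl : (univ : Finset ι) = univ) (fun i _ => key i)
  rw [Finset.sum_add_distrib, Finset.sum_add_distrib] at hsum
  omega

theorem exists_pattern (ρ : α → ℕ) (c : β → ℕ) {x y : Tab α β} (hx : x ∈ Omega ρ c)
    (hy : y ∈ Omega ρ c) (hxy : x ≠ y) :
    ∃ i1 i2 j1 j2, i1 ≠ i2 ∧ j1 ≠ j2 ∧ x i1 j1 = true ∧ y i1 j1 = false ∧
      x i1 j2 = false ∧ y i1 j2 = true ∧ x i2 j2 = true ∧ y i2 j2 = false ∧
      ¬ (x i2 j1 = true ∧ y i2 j1 = false) := by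
  unfold Omega at hx hy
  rw [Finset.mem_filter] at hx hy
  -- column and row balance
  have hcol : ∀ j, (univ.filter fun i => x i j = true ∧ y i j = false).card =
      (univ.filter fun i => x i j = false ∧ y i j = true).card := by
    intro j
    apply card_tf_eq_card_ft (fun i => x i j) (fun i => y i j)
    have h1 := hx.2.2 j
    have h2 := hy.2.2 j
    unfold colSum at h1 h2
    rw [h1, h2]
  have hrow : ∀ i, (univ.filter fun j => x i j = true ∧ y i j = false).card =
      (univ.filter fun j => x i j = false ∧ y i j = true).card := by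
    intro i
    apply card_tf_eq_card_ft (fun j => x i j) (fun j => y i j)
    have h1 := hx.2.1 i
    have h2 := hy.2.1 i
    unfold rowSum at h1 h2
    rw [h1, h2]
  set P : β → Finset α := fun j => univ.filter fun i => x i j = true ∧ y i j = false with hP
  -- some column has a cell with x = 1, y = 0
  obtain ⟨i0, hi0⟩ := Function.ne_iff.mp hxy
  obtain ⟨j0, hj0⟩ := Function.ne_iff.mp hi0
  have hne : (univ.filter fun j => (P j).Nonempty).Nonempty := by
    refine ⟨j0, ?_⟩
    rw [Finset.mem_filter]
    refine ⟨Finset.mem_univ _, ?_⟩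
    rw [← Finset.card_pos]
    by_cases hx0 : x i0 j0 = true
    · have hy0 : y i0 j0 = false := by
        cases hyy : y i0 j0
        · rfl
        · exact absurd (hx0.trans hyy.symm) hj0
      exact Finset.card_pos.mpr ⟨i0, by simp [hP, hx0, hy0]⟩
    · have hx0' : x i0 j0 = false := by simpa using hx0
      have hy0 : y i0 j0 = true := by
        cases hyy : y i0 j0
        · exact absurd (hx0'.trans hyy.symm) hj0
        · rfl
      have : 0 < (univ.filter fun i => x i j0 = false ∧ y i j0 = true).card :=
        Finset.card_pos.mpr ⟨i0, by simp [hx0', hy0]⟩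
      have h := hcol j0
      simp only [hP]
      omega
  obtain ⟨j1, hj1S, hmin⟩ := Finset.exists_min_image _ (fun j => (P j).card) hne
  rw [Finset.mem_filter] at hj1S
  obtain ⟨i1, hi1⟩ := hj1S.2
  have hi1' : x i1 j1 = true ∧ y i1 j1 = false := by
    simpa [hP] using hi1
  -- a column j2 with x i1 j2 = 0, y i1 j2 = 1
  have hrow1 := hrow i1
  have hpos1 : 0 < (univ.filter fun j => x i1 j = true ∧ y i1 j = false).card :=
    Finset.card_pos.mpr ⟨j1, by simp [hi1'.1, hi1'.2]⟩
  have hpos2 : 0 < (univ.filter fun j => x i1 j = false ∧ y i1 j = true).card := by omega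
  obtain ⟨j2, hj2⟩ := Finset.card_pos.mp hpos2
  have hj2' : x i1 j2 = false ∧ y i1 j2 = true := by
    simpa using hj2
  -- P j2 is nonempty, hence at least as large as P j1
  have hcol2 := hcol j2
  have hpos3 : 0 < (univ.filter fun i => x i j2 = false ∧ y i j2 = true).card :=
    Finset.card_pos.mpr ⟨i1, by simp [hj2'.1, hj2'.2]⟩
  have hpos4 : 0 < (P j2).card := by
    simp only [hP]
    omega
  have hj2S : j2 ∈ univ.filter fun j => (P j).Nonempty := by
    rw [Finset.mem_filter]
    exact ⟨Finset.mem_univ _, Finset.card_pos.mp hpos4⟩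
  have hle : (P j1).card ≤ (P j2).card := hmin j2 hj2S
  have hnsub : ¬ (P j2 ⊆ P j1) := by
    intro hsub
    have heq := Finset.eq_of_subset_of_card_le hsub hle
    have : i1 ∈ P j2 := by
      rw [heq]
      exact hi1
    have h' : x i1 j2 = true ∧ y i1 j2 = false := by
      simpa [hP] using this
    rw [hj2'.1] at h'
    exact Bool.false_ne_true h'.1
  obtain ⟨i2, hi2, hi2n⟩ := Finset.not_subset.mp hnsub
  have hi2' : x i2 j2 = true ∧ y i2 j2 = false := by
    simpa [hP] using hi2
  have hi2n' : ¬ (x i2 j1 = true ∧ y i2 j1 = false) := by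
    simpa [hP] using hi2n
  refine ⟨i1, i2, j1, j2, ?_, ?_, hi1'.1, hi1'.2, hj2'.1, hj2'.2, hi2'.1, hi2'.2, hi2n'⟩
  · rintro rfl
    have := hi2'.1
    rw [hj2'.1] at this
    exact Bool.false_ne_true this
  · rintro rfl
    have := hi1'.1
    rw [hj2'.1] at this
    exact Bool.false_ne_true this

theorem ryser_aux (ρ : α → ℕ) (c : β → ℕ) :
    ∀ n : ℕ, ∀ x y : Tab α β, x ∈ Omega ρ c → y ∈ Omega ρ c → hdist x y < n →
      Relation.ReflTransGen IsSwitch x y := by
  intro n
  induction n with
  | zero =>
    intro x y _ _ h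
    exact absurd h (Nat.not_lt_zero _)
  | succ n ih =>
    intro x y hx hy hd
    by_cases hxy : x = y
    · rw [hxy]
    · obtain ⟨i1, i2, j1, j2, hi, hj, h1, h2, h3, h4, h5, h6, h7⟩ :=
        exists_pattern ρ c hx hy hxy
      by_cases hx21 : x i2 j1 = true
      · -- switch `y`
        have hy21 : y i2 j1 = true := by
          cases hyy : y i2 j1
          · exact absurd ⟨hx21, hyy⟩ h7
          · rfl
        have hsw : SwitchAt i1 i2 j2 j1 y (doSwitch i1 i2 j2 j1 y) :=
          switchAt_doSwitch hi hj.symm h4 hy21 h2 h6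
        have hsw' := hsw
        obtain ⟨-, -, -, -, -, -, g1, g2, g3, g4, g5⟩ := hsw'
        have hlt : hdist (doSwitch i1 i2 j2 j1 y) x < hdist y x := by
          apply hdist_lt (c1 := (i1, j2)) (c2 := (i1, j1)) (c3 := (i2, j2)) (c4 := (i2, j1))
          · intro h
            exact hj (Prod.ext_iff.mp h).2.symm
          · intro h
            exact hi (Prod.ext_iff.mp h).1
          · intro h
            exact hi (Prod.ext_iff.mp h).1
          · intro p n1 n2 n3 n4
            apply g5
            rintro ⟨hr, hs⟩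
            rcases hr with hr | hr <;> rcases hs with hs | hs
            · exact n1 (Prod.ext hr hs)
            · exact n2 (Prod.ext hr hs)
            · exact n3 (Prod.ext hr hs)
            · exact n4 (Prod.ext hr hs)
          · show doSwitch i1 i2 j2 j1 y i1 j2 = x i1 j2
            rw [g1, h3]
          · show doSwitch i1 i2 j2 j1 y i1 j1 = x i1 j1
            rw [g3, h1]
          · show doSwitch i1 i2 j2 j1 y i2 j2 = x i2 j2
            rw [g4, h5]
          · show y i1 j2 ≠ x i1 j2
            rw [h4, h3]
            exact (by decide : (true : Bool) ≠ false)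
          · show y i1 j1 ≠ x i1 j1
            rw [h2, h1]
            exact Bool.false_ne_true
          · show y i2 j2 ≠ x i2 j2
            rw [h6, h5]
            exact Bool.false_ne_true
        have hy' : doSwitch i1 i2 j2 j1 y ∈ Omega ρ c :=
          IsSwitch.mem_Omega ⟨i1, i2, j2, j1, hsw⟩ hy
        have hd' : hdist x (doSwitch i1 i2 j2 j1 y) < n := by
          rw [hdist_comm] at hd ⊢
          omega
        have hpath := ih x _ hx hy' hd'
        exact Relation.ReflTransGen.tail hpath (isSwitch_symm ⟨i1, i2, j2, j1, hsw⟩)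
      · -- switch `x`
        have hx21' : x i2 j1 = false := by simpa using hx21
        have hsw : SwitchAt i1 i2 j1 j2 x (doSwitch i1 i2 j1 j2 x) :=
          switchAt_doSwitch hi hj h1 h5 h3 hx21'
        have hsw' := hsw
        obtain ⟨-, -, -, -, -, -, g1, g2, g3, g4, g5⟩ := hsw'
        have hlt : hdist (doSwitch i1 i2 j1 j2 x) y < hdist x y := by
          apply hdist_lt (c1 := (i1, j1)) (c2 := (i1, j2)) (c3 := (i2, j2)) (c4 := (i2, j1))
          · intro h
            exact hj (Prod.ext_iff.mp h).2
          · intro h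
            exact hi (Prod.ext_iff.mp h).1
          · intro h
            exact hi (Prod.ext_iff.mp h).1
          · intro p n1 n2 n3 n4
            apply g5
            rintro ⟨hr, hs⟩
            rcases hr with hr | hr <;> rcases hs with hs | hs
            · exact n1 (Prod.ext hr hs)
            · exact n2 (Prod.ext hr hs)
            · exact n4 (Prod.ext hr hs)
            · exact n3 (Prod.ext hr hs)
          · show doSwitch i1 i2 j1 j2 x i1 j1 = y i1 j1
            rw [g1, h2]
          · show doSwitch i1 i2 j1 j2 x i1 j2 = y i1 j2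
            rw [g3, h4]
          · show doSwitch i1 i2 j1 j2 x i2 j2 = y i2 j2
            rw [g2, h6]
          · show x i1 j1 ≠ y i1 j1
            rw [h1, h2]
            exact (by decide : (true : Bool) ≠ false)
          · show x i1 j2 ≠ y i1 j2
            rw [h3, h4]
            exact Bool.false_ne_true
          · show x i2 j2 ≠ y i2 j2
            rw [h5, h6]
            exact (by decide : (true : Bool) ≠ false)
        have hx' : doSwitch i1 i2 j1 j2 x ∈ Omega ρ c :=
          IsSwitch.mem_Omega ⟨i1, i2, j1, j2, hsw⟩ hx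
        have hd' : hdist (doSwitch i1 i2 j1 j2 x) y < n := by omega
        have hpath := ih _ y hx' hy hd'
        exact Relation.ReflTransGen.head ⟨i1, i2, j1, j2, hsw⟩ hpath

end H23

/-- (E2) Ryser: the switch graph on `Omega ρ c` is connected. -/
theorem ryser (ρ : α → ℕ) (c : β → ℕ) {x y : Tab α β} (hx : x ∈ Omega ρ c)
    (hy : y ∈ Omega ρ c) : Relation.ReflTransGen IsSwitch x y :=
  H23.ryser_aux ρ c (H23.hdist x y + 1) x y hx hy (Nat.lt_succ_self _)

end Tables

end KTV
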