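import Vale.Agent.Helper16.KTV.Defs

/-!
Module B of the bipartite switch-chain project (problem P335):
conditional expectations given the rows outside two disjoint sets of rows commute
(on tables with prescribed margins).
-/

namespace KTV

open Finset

section Tables

variable {α β : Type*} [Fintype α] [DecidableEq α] [Fintype β] [DecidableEq β]

namespace H23

/-- The table with the rows in `S` taken from `u` and all other rows taken from `w`. -/
def mix (S : Finset α) (u w : Tab α β) : Tab α β := fun r => if r ∈ S then u r else w r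

theorem mix_of_mem {S : Finset α} (u w : Tab α β) {r : α} (h : r ∈ S) : mix S u w r = u r :=
  if_pos h

theorem mix_of_notMem {S : Finset α} (u w : Tab α β) {r : α} (h : r ∉ S) :
    mix S u w r = w r :=
  if_neg h

/-- The number of ones of column `j` inside the rows of `S`. -/
def partCol (S : Finset α) (y : Tab α β) (j : β) : ℕ :=
  ∑ r ∈ S, if y r j = true then 1 else 0

theorem colSum_eq_partCol (S : Finset α) (y : Tab α β) (j : β) :
    colSum y j = partCol S y j + partCol Sᶜ y j := by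
  unfold colSum partCol
  rw [Finset.card_filter, Finset.sum_add_sum_compl]

theorem rowSum_congr {y z : Tab α β} {r : α} (h : y r = z r) : rowSum y r = rowSum z r := by
  unfold rowSum
  rw [h]

theorem partCol_congr {S : Finset α} {y z : Tab α β} (h : ∀ r ∈ S, y r = z r) (j : β) :
    partCol S y j = partCol S z j := by
  unfold partCol
  apply Finset.sum_congr rfl
  intro r hr
  rw [h r hr]

theorem mem_Omega_iff {ρ : α → ℕ} {c : β → ℕ} {y : Tab α β} :
    y ∈ Omega ρ c ↔ (∀ a, rowSum y a = ρ a) ∧ (∀ j, colSum y j = c j) := by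
  unfold Omega
  rw [Finset.mem_filter]
  exact ⟨fun h => h.2, fun h => ⟨Finset.mem_univ _, h⟩⟩

theorem mem_fibre_iff {Ω : Finset (Tab α β)} {S : Finset α} {x y : Tab α β} :
    y ∈ fibre Ω S x ↔ y ∈ Ω ∧ AgreeOff S x y := by
  unfold fibre
  rw [Finset.mem_filter]

theorem mix_mem_Omega {ρ : α → ℕ} {c : β → ℕ} {S : Finset α} {x u w : Tab α β}
    (hx : x ∈ Omega ρ c) (hu : u ∈ Omega ρ c) (hux : AgreeOff S x u)
    (hw : w ∈ Omega ρ c) (hwx : ∀ r ∈ S, w r = x r) : mix S u w ∈ Omega ρ c := by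
  rw [mem_Omega_iff] at hx hu hw ⊢
  constructor
  · intro r
    by_cases hr : r ∈ S
    · rw [rowSum_congr (mix_of_mem u w hr)]
      exact hu.1 r
    · rw [rowSum_congr (mix_of_notMem u w hr)]
      exact hw.1 r
  · intro j
    have h1 : partCol Sᶜ u j = partCol Sᶜ x j :=
      partCol_congr (fun r hr => (hux r (Finset.mem_compl.mp hr)).symm) j
    have h2 : partCol S u j = partCol S x j := by
      have e1 := colSum_eq_partCol S u j
      have e2 := colSum_eq_partCol S x j
      have e3 := hu.2 j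
      have e4 := hx.2 j
      omega
    have h3 : partCol S (mix S u w) j = partCol S u j :=
      partCol_congr (fun r hr => mix_of_mem u w hr) j
    have h4 : partCol Sᶜ (mix S u w) j = partCol Sᶜ w j :=
      partCol_congr (fun r hr => mix_of_notMem u w (Finset.mem_compl.mp hr)) j
    have h5 : partCol S w j = partCol S x j := partCol_congr hwx j
    rw [colSum_eq_partCol S (mix S u w) j, h3, h4, h2, ← h5, ← colSum_eq_partCol S w j]
    exact hw.2 j

theorem mix_mem_fibre {ρ : α → ℕ} {c : β → ℕ} {S T : Finset α} (hST : Disjoint S T)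
    {x u w : Tab α β} (hx : x ∈ Omega ρ c) (hu : u ∈ fibre (Omega ρ c) S x)
    (hw : w ∈ fibre (Omega ρ c) T x) : mix S u w ∈ fibre (Omega ρ c) T u := by
  rw [mem_fibre_iff] at hu hw ⊢
  have hS : ∀ r ∈ S, r ∉ T := fun r hr => Finset.disjoint_left.mp hST hr
  refine ⟨mix_mem_Omega hx hu.1 hu.2 hw.1 (fun r hr => (hw.2 r (hS r hr)).symm), ?_⟩
  intro r hr
  by_cases hrS : r ∈ S
  · rw [mix_of_mem u w hrS]
  · rw [mix_of_notMem u w hrS, ← hw.2 r hr]
    exact (hu.2 r hrS).symm

theorem sum_fibre_mix {ρ : α → ℕ} {c : β → ℕ} {S T : Finset α} (hST : Disjoint S T)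
    {x u : Tab α β} (hx : x ∈ Omega ρ c) (hu : u ∈ fibre (Omega ρ c) S x)
    (g : Tab α β → ℝ) :
    ∑ v ∈ fibre (Omega ρ c) T u, g v = ∑ w ∈ fibre (Omega ρ c) T x, g (mix S u w) := by
  have hu' := mem_fibre_iff.mp hu
  have hxu : x ∈ fibre (Omega ρ c) S u :=
    mem_fibre_iff.mpr ⟨hx, fun r hr => (hu'.2 r hr).symm⟩
  have hS : ∀ r ∈ S, r ∉ T := fun r hr => Finset.disjoint_left.mp hST hr
  symm
  apply Finset.sum_nbij' (fun w => mix S u w) (fun v => mix S x v)
  · intro w hw
    exact mix_mem_fibre hST hx hu hw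
  · intro v hv
    exact mix_mem_fibre hST hu'.1 hxu hv
  · intro w hw
    have hw' := mem_fibre_iff.mp hw
    funext r
    by_cases hr : r ∈ S
    · rw [mix_of_mem _ _ hr]
      exact hw'.2 r (hS r hr)
    · rw [mix_of_notMem _ _ hr, mix_of_notMem _ _ hr]
  · intro v hv
    have hv' := mem_fibre_iff.mp hv
    funext r
    by_cases hr : r ∈ S
    · rw [mix_of_mem _ _ hr]
      exact hv'.2 r (hS r hr)
    · rw [mix_of_notMem _ _ hr, mix_of_notMem _ _ hr]
  · intro w _
    rfl

theorem card_fibre_mix {ρ : α → ℕ} {c : β → ℕ} {S T : Finset α} (hST : Disjoint S T)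
    {x u : Tab α β} (hx : x ∈ Omega ρ c) (hu : u ∈ fibre (Omega ρ c) S x) :
    ((fibre (Omega ρ c) T u).card : ℝ) = ((fibre (Omega ρ c) T x).card : ℝ) := by
  have h := sum_fibre_mix hST hx hu (fun _ => (1 : ℝ))
  simpa using h

/-- Iterated conditional expectation over two disjoint sets of rows as a double average. -/
theorem cexp_cexp_eq {ρ : α → ℕ} {c : β → ℕ} {S T : Finset α} (hST : Disjoint S T)
    (f : Tab α β → ℝ) {x : Tab α β} (hx : x ∈ Omega ρ c) :
    cexp (Omega ρ c) S (cexp (Omega ρ c) T f) x =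
      (∑ u ∈ fibre (Omega ρ c) S x, ∑ w ∈ fibre (Omega ρ c) T x, f (mix S u w)) /
        (((fibre (Omega ρ c) T x).card : ℝ) * ((fibre (Omega ρ c) S x).card : ℝ)) := by
  have h1 : ∀ u ∈ fibre (Omega ρ c) S x, cexp (Omega ρ c) T f u =
      (∑ w ∈ fibre (Omega ρ c) T x, f (mix S u w)) / ((fibre (Omega ρ c) T x).card : ℝ) := by
    intro u hu
    unfold cexp
    rw [sum_fibre_mix hST hx hu f, card_fibre_mix hST hx hu]
  show (∑ u ∈ fibre (Omega ρ c) S x, cexp (Omega ρ c) T f u) /
      ((fibre (Omega ρ c) S x).card : ℝ) = _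
  rw [Finset.sum_congr rfl h1, ← Finset.sum_div, div_div]

theorem mix_comm_of_fibre {Ω : Finset (Tab α β)} {S T : Finset α} (hST : Disjoint S T)
    {x u w : Tab α β} (hu : u ∈ fibre Ω S x) (hw : w ∈ fibre Ω T x) :
    mix S u w = mix T w u := by
  have hu' := mem_fibre_iff.mp hu
  have hw' := mem_fibre_iff.mp hw
  have hS : ∀ r ∈ S, r ∉ T := fun r hr => Finset.disjoint_left.mp hST hr
  funext r
  by_cases hr : r ∈ S
  · rw [mix_of_mem _ _ hr, mix_of_notMem _ _ (hS r hr)]
  · rw [mix_of_notMem _ _ hr]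
    by_cases hrT : r ∈ T
    · rw [mix_of_mem _ _ hrT]
    · rw [mix_of_notMem _ _ hrT, ← hw'.2 r hrT]
      exact hu'.2 r hr

end H23

open H23 in
/-- Conditional expectations over two disjoint sets of rows commute. -/
theorem cexp_comm_of_disjoint {ρ : α → ℕ} {c : β → ℕ} {S T : Finset α} (hST : Disjoint S T)
    (f : Tab α β → ℝ) {x : Tab α β} (hx : x ∈ Omega ρ c) :
    cexp (Omega ρ c) S (cexp (Omega ρ c) T f) x =
      cexp (Omega ρ c) T (cexp (Omega ρ c) S f) x := by
  rw [cexp_cexp_eq hST f hx, cexp_cexp_eq hST.symm f hx, Finset.sum_comm,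
    mul_comm ((fibre (Omega ρ c) T x).card : ℝ)]
  congr 1
  apply Finset.sum_congr rfl
  intro w hw
  apply Finset.sum_congr rfl
  intro u hu
  rw [mix_comm_of_fibre hST hu hw]

/-- (B) resampling two disjoint pairs of rows commutes. -/
theorem cexp_comm (ρ : α → ℕ) (c : β → ℕ) {a b p q : α}
    (hab : a ≠ b) (hpq : p ≠ q) (hap : a ≠ p) (haq : a ≠ q) (hbp : b ≠ p) (hbq : b ≠ q)
    (f : Tab α β → ℝ) {x : Tab α β} (hx : x ∈ Omega ρ c) :
    cexp (Omega ρ c) {a, b} (cexp (Omega ρ c) {p, q} f) x =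
      cexp (Omega ρ c) {p, q} (cexp (Omega ρ c) {a, b} f) x := by
  have hST : Disjoint ({a, b} : Finset α) {p, q} := by
    rw [Finset.disjoint_left]
    intro r hr hr'
    rw [Finset.mem_insert, Finset.mem_singleton] at hr hr'
    rcases hr with rfl | rfl <;> rcases hr' with h | h
    · exact hap h
    · exact haq h
    · exact hbp h
    · exact hbq h
  exact cexp_comm_of_disjoint hST f hx

end Tables

end KTV
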